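import Mathlib
import Crest.Prelude.Def_TreePotentials

/-!
Package P168A1 (row 125 / S0168): the combinatorial heart, split tests via clamped potentials.

Given a finite suffix-closed vertex set `S` containing the root, tests `f`, `g` of a model `m`
and weights `a, b ≥ 0` with `a² + b² ≤ 1`, `b ≤ 1/2`, there are tests `hp`, `hm` which both equal
`a • f` on `S` and whose difference is `b • g` off `S`.
-/

namespace Crest.Agent.S0168.Helper92

open Crest.AnalysisR.TreePotential

/-- The longest suffix (= nearest ancestor-or-self) of a vertex lying in `S`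
(`[]` if there is none). -/
def anc (S : Finset (List ℕ)) : List ℕ → List ℕ
  | [] => []
  | c :: v => if c :: v ∈ S then c :: v else anc S v

/-- The increments of a potential `Φ`: the coefficient family whose path potential is `Φ`. -/
def incr (Φ : List ℕ → ℝ) : List ℕ → ℝ
  | [] => Φ []
  | c :: v => Φ (c :: v) - Φ v

theorem pathPotential_incr (Φ : List ℕ → ℝ) : ∀ s, pathPotential (incr Φ) s = Φ s
  | [] => rfl
  | c :: v => by
    simp [pathPotential, incr, pathPotential_incr Φ v]

theorem anc_of_mem {S : Finset (List ℕ)} : ∀ {u : List ℕ}, u ∈ S → anc S u = u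
  | [], _ => rfl
  | c :: v, h => by simp [anc, h]

theorem anc_cons_of_not_mem {S : Finset (List ℕ)} {c : ℕ} {v : List ℕ} (h : c :: v ∉ S) :
    anc S (c :: v) = anc S v := by
  simp [anc, h]

/-- The "plus" potential. -/
noncomputable def PhiP (S : Finset (List ℕ)) (f g : List ℕ → ℝ) (a b : ℝ) (s : List ℕ) : ℝ :=
  a * pathPotential f (anc S s) +
    b * (if 0 ≤ pathPotential f (anc S s) then
      min (pathPotential g s - pathPotential g (anc S s)) 0
    else max (pathPotential g s - pathPotential g (anc S s)) 0)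

/-- The "minus" potential. -/
noncomputable def PhiM (S : Finset (List ℕ)) (f g : List ℕ → ℝ) (a b : ℝ) (s : List ℕ) : ℝ :=
  a * pathPotential f (anc S s) -
    b * (if 0 ≤ pathPotential f (anc S s) then
      max (pathPotential g s - pathPotential g (anc S s)) 0
    else min (pathPotential g s - pathPotential g (anc S s)) 0)

theorem PhiP_of_mem {S : Finset (List ℕ)} (f g : List ℕ → ℝ) (a b : ℝ) {u : List ℕ}
    (hu : u ∈ S) : PhiP S f g a b u = a * pathPotential f u := by
  simp [PhiP, anc_of_mem hu]

theorem PhiM_of_mem {S : Finset (List ℕ)} (f g : List ℕ → ℝ) (a b : ℝ) {u : List ℕ}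
    (hu : u ∈ S) : PhiM S f g a b u = a * pathPotential f u := by
  simp [PhiM, anc_of_mem hu]

theorem incr_PhiP_of_mem {S : Finset (List ℕ)}
    (hS : ∀ u ∈ S, ∀ v : List ℕ, v <:+ u → v ∈ S) (f g : List ℕ → ℝ) (a b : ℝ) :
    ∀ {u : List ℕ}, u ∈ S → incr (PhiP S f g a b) u = a * f u
  | [], hu => by simp [incr, PhiP_of_mem f g a b hu, pathPotential]
  | c :: v, hu => by
    have hv : v ∈ S := hS _ hu v (List.suffix_cons c v)
    simp only [incr, PhiP_of_mem f g a b hu, PhiP_of_mem f g a b hv, pathPotential]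
    ring

theorem incr_PhiM_of_mem {S : Finset (List ℕ)}
    (hS : ∀ u ∈ S, ∀ v : List ℕ, v <:+ u → v ∈ S) (f g : List ℕ → ℝ) (a b : ℝ) :
    ∀ {u : List ℕ}, u ∈ S → incr (PhiM S f g a b) u = a * f u
  | [], hu => by simp [incr, PhiM_of_mem f g a b hu, pathPotential]
  | c :: v, hu => by
    have hv : v ∈ S := hS _ hu v (List.suffix_cons c v)
    simp only [incr, PhiM_of_mem f g a b hu, PhiM_of_mem f g a b hv, pathPotential]
    ring

theorem abs_min_zero_sub_le (x y : ℝ) : |min x 0 - min y 0| ≤ |x - y| := by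
  have := abs_min_sub_min_le_max x 0 y 0
  simpa using this

theorem abs_max_zero_sub_le (x y : ℝ) : |max x 0 - max y 0| ≤ |x - y| := by
  have := abs_max_sub_max_le_max x 0 y 0
  simpa using this

theorem abs_incr_PhiP_of_not_mem {S : Finset (List ℕ)} (hS0 : [] ∈ S) (f g : List ℕ → ℝ)
    (a : ℝ) {b : ℝ} (hb : 0 ≤ b) :
    ∀ {u : List ℕ}, u ∉ S → |incr (PhiP S f g a b) u| ≤ b * |g u|
  | [], hu => absurd hS0 hu
  | c :: v, hu => by
    have he : anc S (c :: v) = anc S v := anc_cons_of_not_mem hu
    have hg : pathPotential g (c :: v) - pathPotential g (anc S v) -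
        (pathPotential g v - pathPotential g (anc S v)) = g (c :: v) := by
      simp [pathPotential]
    simp only [incr, PhiP, he]
    split_ifs with hq
    · have := abs_min_zero_sub_le (pathPotential g (c :: v) - pathPotential g (anc S v))
        (pathPotential g v - pathPotential g (anc S v))
      rw [hg] at this
      have h2 : a * pathPotential f (anc S v) +
          b * min (pathPotential g (c :: v) - pathPotential g (anc S v)) 0 -
          (a * pathPotential f (anc S v) +
            b * min (pathPotential g v - pathPotential g (anc S v)) 0) =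
          b * (min (pathPotential g (c :: v) - pathPotential g (anc S v)) 0 -
            min (pathPotential g v - pathPotential g (anc S v)) 0) := by ring
      rw [h2, abs_mul, abs_of_nonneg hb]
      exact mul_le_mul_of_nonneg_left this hb
    · have := abs_max_zero_sub_le (pathPotential g (c :: v) - pathPotential g (anc S v))
        (pathPotential g v - pathPotential g (anc S v))
      rw [hg] at this
      have h2 : a * pathPotential f (anc S v) +
          b * max (pathPotential g (c :: v) - pathPotential g (anc S v)) 0 -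
          (a * pathPotential f (anc S v) +
            b * max (pathPotential g v - pathPotential g (anc S v)) 0) =
          b * (max (pathPotential g (c :: v) - pathPotential g (anc S v)) 0 -
            max (pathPotential g v - pathPotential g (anc S v)) 0) := by ring
      rw [h2, abs_mul, abs_of_nonneg hb]
      exact mul_le_mul_of_nonneg_left this hb

theorem abs_incr_PhiM_of_not_mem {S : Finset (List ℕ)} (hS0 : [] ∈ S) (f g : List ℕ → ℝ)
    (a : ℝ) {b : ℝ} (hb : 0 ≤ b) :
    ∀ {u : List ℕ}, u ∉ S → |incr (PhiM S f g a b) u| ≤ b * |g u|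
  | [], hu => absurd hS0 hu
  | c :: v, hu => by
    have he : anc S (c :: v) = anc S v := anc_cons_of_not_mem hu
    have hg : pathPotential g (c :: v) - pathPotential g (anc S v) -
        (pathPotential g v - pathPotential g (anc S v)) = g (c :: v) := by
      simp [pathPotential]
    simp only [incr, PhiM, he]
    split_ifs with hq
    · have := abs_max_zero_sub_le (pathPotential g (c :: v) - pathPotential g (anc S v))
        (pathPotential g v - pathPotential g (anc S v))
      rw [hg] at this
      have h2 : a * pathPotential f (anc S v) -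
          b * max (pathPotential g (c :: v) - pathPotential g (anc S v)) 0 -
          (a * pathPotential f (anc S v) -
            b * max (pathPotential g v - pathPotential g (anc S v)) 0) =
          -(b * (max (pathPotential g (c :: v) - pathPotential g (anc S v)) 0 -
            max (pathPotential g v - pathPotential g (anc S v)) 0)) := by ring
      rw [h2, abs_neg, abs_mul, abs_of_nonneg hb]
      exact mul_le_mul_of_nonneg_left this hb
    · have := abs_min_zero_sub_le (pathPotential g (c :: v) - pathPotential g (anc S v))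
        (pathPotential g v - pathPotential g (anc S v))
      rw [hg] at this
      have h2 : a * pathPotential f (anc S v) -
          b * min (pathPotential g (c :: v) - pathPotential g (anc S v)) 0 -
          (a * pathPotential f (anc S v) -
            b * min (pathPotential g v - pathPotential g (anc S v)) 0) =
          -(b * (min (pathPotential g (c :: v) - pathPotential g (anc S v)) 0 -
            min (pathPotential g v - pathPotential g (anc S v)) 0)) := by ring
      rw [h2, abs_neg, abs_mul, abs_of_nonneg hb]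
      exact mul_le_mul_of_nonneg_left this hb

theorem incr_sub_of_not_mem {S : Finset (List ℕ)} (hS0 : [] ∈ S) (f g : List ℕ → ℝ)
    (a b : ℝ) :
    ∀ {u : List ℕ}, u ∉ S → incr (PhiP S f g a b) u - incr (PhiM S f g a b) u = b * g u
  | [], hu => absurd hS0 hu
  | c :: v, hu => by
    have he : anc S (c :: v) = anc S v := anc_cons_of_not_mem hu
    have hg : pathPotential g (c :: v) = pathPotential g v + g (c :: v) := rfl
    simp only [incr, PhiP, PhiM, he]
    have hmm : ∀ x : ℝ, min x 0 + max x 0 = x := fun x => by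
      rw [min_add_max]; simp
    have h1 := hmm (pathPotential g (c :: v) - pathPotential g (anc S v))
    have h2 := hmm (pathPotential g v - pathPotential g (anc S v))
    split_ifs with hq <;> linear_combination b * h1 - b * h2 + b * hg

/-- Bound for a potential of the clamped form. -/
theorem abs_clamp_le_one {a b q t : ℝ} (ha : 0 ≤ a) (ha1 : a ≤ 1) (hb : 0 ≤ b)
    (hb2 : b ≤ 1 / 2) (hq0 : 0 ≤ q) (hq1 : q ≤ 1) (ht0 : -2 ≤ t) (ht1 : t ≤ 0) :
    |a * q + b * t| ≤ 1 := by
  have h1 : 0 ≤ a * q := mul_nonneg ha hq0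
  have h2 : a * q ≤ 1 := by nlinarith
  have h3 : b * t ≤ 0 := mul_nonpos_of_nonneg_of_nonpos hb ht1
  have h4 : -1 ≤ b * t := by nlinarith
  rw [abs_le]
  constructor <;> linarith

theorem abs_PhiP_le_one {S : Finset (List ℕ)} {f g : List ℕ → ℝ}
    (hf : ∀ s, |pathPotential f s| ≤ 1) (hg : ∀ s, |pathPotential g s| ≤ 1) {a b : ℝ}
    (ha : 0 ≤ a) (ha1 : a ≤ 1) (hb : 0 ≤ b) (hb2 : b ≤ 1 / 2) (s : List ℕ) :
    |PhiP S f g a b s| ≤ 1 := by
  have hq := abs_le.mp (hf (anc S s))
  have h1 := abs_le.mp (hg s)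
  have h2 := abs_le.mp (hg (anc S s))
  unfold PhiP
  split_ifs with h
  · exact abs_clamp_le_one ha ha1 hb hb2 h hq.2 (le_min (by linarith) (by norm_num))
      (min_le_right _ _)
  · have := abs_clamp_le_one (q := -pathPotential f (anc S s))
      (t := -max (pathPotential g s - pathPotential g (anc S s)) 0) ha ha1 hb hb2
      (by linarith) (by linarith) (by
        have : max (pathPotential g s - pathPotential g (anc S s)) 0 ≤ 2 :=
          max_le (by linarith) (by norm_num)
        linarith) (by
        have : 0 ≤ max (pathPotential g s - pathPotential g (anc S s)) 0 := le_max_right _ _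
        linarith)
    rw [← abs_neg]
    convert this using 2
    ring

theorem abs_PhiM_le_one {S : Finset (List ℕ)} {f g : List ℕ → ℝ}
    (hf : ∀ s, |pathPotential f s| ≤ 1) (hg : ∀ s, |pathPotential g s| ≤ 1) {a b : ℝ}
    (ha : 0 ≤ a) (ha1 : a ≤ 1) (hb : 0 ≤ b) (hb2 : b ≤ 1 / 2) (s : List ℕ) :
    |PhiM S f g a b s| ≤ 1 := by
  have hq := abs_le.mp (hf (anc S s))
  have h1 := abs_le.mp (hg s)
  have h2 := abs_le.mp (hg (anc S s))
  unfold PhiM
  split_ifs with h
  · have := abs_clamp_le_one (q := pathPotential f (anc S s))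
      (t := -max (pathPotential g s - pathPotential g (anc S s)) 0) ha ha1 hb hb2
      h hq.2 (by
        have : max (pathPotential g s - pathPotential g (anc S s)) 0 ≤ 2 :=
          max_le (by linarith) (by norm_num)
        linarith) (by
        have : 0 ≤ max (pathPotential g s - pathPotential g (anc S s)) 0 := le_max_right _ _
        linarith)
    convert this using 2
    ring
  · have := abs_clamp_le_one (q := -pathPotential f (anc S s))
      (t := min (pathPotential g s - pathPotential g (anc S s)) 0) ha ha1 hb hb2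
      (by linarith) (by linarith) (le_min (by linarith) (by norm_num)) (min_le_right _ _)
    rw [← abs_neg]
    convert this using 2
    ring

/-- Sum bound: pointwise `H² ≤ a² F² + b² G²` with `∑ F² ≤ 1`, `∑ G² ≤ 1`, `a² + b² ≤ 1`. -/
theorem sum_sq_le_one {ι : Type*} (A : Finset ι) {F G H : ι → ℝ} {a b : ℝ}
    (hab : a ^ 2 + b ^ 2 ≤ 1) (hH : ∀ i ∈ A, H i ^ 2 ≤ a ^ 2 * F i ^ 2 + b ^ 2 * G i ^ 2)
    (hF : ∑ i ∈ A, F i ^ 2 ≤ 1) (hG : ∑ i ∈ A, G i ^ 2 ≤ 1) : ∑ i ∈ A, H i ^ 2 ≤ 1 := by
  calc ∑ i ∈ A, H i ^ 2 ≤ ∑ i ∈ A, (a ^ 2 * F i ^ 2 + b ^ 2 * G i ^ 2) := Finset.sum_le_sum hH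
    _ = a ^ 2 * ∑ i ∈ A, F i ^ 2 + b ^ 2 * ∑ i ∈ A, G i ^ 2 := by
      rw [Finset.sum_add_distrib, Finset.mul_sum, Finset.mul_sum]
    _ ≤ a ^ 2 * 1 + b ^ 2 * 1 := by
      gcongr
    _ ≤ 1 := by linarith

/-- A coefficient family dominated in squares by `a² f² + b² g²` (with `f`, `g` tests and
`a² + b² ≤ 1`) and with potentials bounded by one is a test. -/
theorem isTest_of_sq_le (m : PotentialModel) {f g h : List ℕ → ℝ} (hf : IsTest m f)
    (hg : IsTest m g) {a b : ℝ} (hab : a ^ 2 + b ^ 2 ≤ 1)
    (hpot : ∀ s, |pathPotential h s| ≤ 1)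
    (hsq : ∀ u, h u ^ 2 ≤ a ^ 2 * f u ^ 2 + b ^ 2 * g u ^ 2) : IsTest m h := by
  refine ⟨hpot, ?_⟩
  cases m with
  | rootlessSibling =>
    obtain ⟨hf0, hfs⟩ := hf.2
    obtain ⟨hg0, hgs⟩ := hg.2
    refine ⟨?_, fun r A => sum_sq_le_one A hab (fun i _ => hsq (i :: r)) (hfs r A) (hgs r A)⟩
    have := hsq []
    rw [hf0, hg0] at this
    have h0 : h [] ^ 2 ≤ 0 := by simpa using this
    exact pow_eq_zero_iff (two_ne_zero) |>.mp (le_antisymm h0 (sq_nonneg _))
  | rootedSibling =>
    exact fun r A => sum_sq_le_one A hab (fun i _ => hsq (i :: r)) (hf.2 r A) (hg.2 r A)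
  | antichain =>
    obtain ⟨hf0, hfs⟩ := hf.2
    obtain ⟨hg0, hgs⟩ := hg.2
    refine ⟨(hf0.union hg0).subset ?_, fun A hA =>
      sum_sq_le_one A hab (fun i _ => hsq i) (hfs A hA) (hgs A hA)⟩
    intro u hu
    by_contra hcon
    simp only [Set.mem_union, Function.mem_support, not_or, not_not] at hcon
    have := hsq u
    rw [hcon.1, hcon.2] at this
    have h0 : h u ^ 2 ≤ 0 := by simpa using this
    exact hu (pow_eq_zero_iff (two_ne_zero) |>.mp (le_antisymm h0 (sq_nonneg _)))
  | global =>
    exact fun A => sum_sq_le_one A hab (fun i _ => hsq i) (hf.2 A) (hg.2 A)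

/-- **P168A1 interface.** Split tests via clamped potentials. -/
theorem exists_split_tests (m : PotentialModel) (S : Finset (List ℕ)) (hS0 : [] ∈ S)
    (hS : ∀ u ∈ S, ∀ v : List ℕ, v <:+ u → v ∈ S) (f g : List ℕ → ℝ) (hf : IsTest m f)
    (hg : IsTest m g) (hfS : ∀ u, u ∉ S → f u = 0) (a b : ℝ) (ha : 0 ≤ a) (hb : 0 ≤ b)
    (hab : a ^ 2 + b ^ 2 ≤ 1) (hb2 : b ≤ 1 / 2) :
    ∃ hp hm : List ℕ → ℝ, IsTest m hp ∧ IsTest m hm ∧
      (∀ u ∈ S, hp u = a * f u ∧ hm u = a * f u) ∧ (∀ u, u ∉ S → hp u - hm u = b * g u) := by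
  have ha1 : a ≤ 1 := by nlinarith [sq_nonneg b]
  have key : ∀ h : List ℕ → ℝ, (∀ u ∈ S, h u = a * f u) → (∀ u, u ∉ S → |h u| ≤ b * |g u|) →
      ∀ u, h u ^ 2 ≤ a ^ 2 * f u ^ 2 + b ^ 2 * g u ^ 2 := by
    intro h h1 h2 u
    by_cases hu : u ∈ S
    · rw [h1 u hu]
      nlinarith [sq_nonneg (b * g u)]
    · have h3 := h2 u hu
      have h4 : h u ^ 2 ≤ (b * |g u|) ^ 2 := by
        rw [← sq_abs (h u)]
        exact pow_le_pow_left₀ (abs_nonneg _) h3 2
      rw [mul_pow, sq_abs] at h4
      nlinarith [sq_nonneg (a * f u)]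
  refine ⟨incr (PhiP S f g a b), incr (PhiM S f g a b), ?_, ?_, ?_, ?_⟩
  · refine isTest_of_sq_le m hf hg hab (fun s => ?_) (key _ ?_ ?_)
    · rw [pathPotential_incr]
      exact abs_PhiP_le_one hf.1 hg.1 ha ha1 hb hb2 s
    · exact fun u hu => incr_PhiP_of_mem hS f g a b hu
    · exact fun u hu => abs_incr_PhiP_of_not_mem hS0 f g a hb hu
  · refine isTest_of_sq_le m hf hg hab (fun s => ?_) (key _ ?_ ?_)
    · rw [pathPotential_incr]
      exact abs_PhiM_le_one hf.1 hg.1 ha ha1 hb hb2 s
    · exact fun u hu => incr_PhiM_of_mem hS f g a b hu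
    · exact fun u hu => abs_incr_PhiM_of_not_mem hS0 f g a hb hu
  · exact fun u hu => ⟨incr_PhiP_of_mem hS f g a b hu, incr_PhiM_of_mem hS f g a b hu⟩
  · exact fun u hu => incr_sub_of_not_mem hS0 f g a b hu

end Crest.Agent.S0168.Helper92
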