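import Mathlib
import Crest.Prelude.Def_TreePotentials
import Crest.Agent.Lib.S0168.Helper92Split

/-!
Package P168A2 of row 125 (S0168): the core midpoint inequality in the model space of a
bounded-potential tree model.  Everything lives in `Crest.Agent.S0168.Helper24`.
Uses `Crest.Agent.S0168.Helper92.exists_split_tests` (package P168A1).
-/

set_option autoImplicit false

namespace Crest.Agent.S0168.Helper24

open Crest.AnalysisR.TreePotential
open scoped ENNReal

/-! ### Tests: closure properties -/

/-- If `g` is pointwise dominated in square by `f`, the extra condition passes from `f` to `g`. -/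
theorem extra_of_sq_le (m : PotentialModel) {f g : List ℕ → ℝ} (h : ∀ u, g u ^ 2 ≤ f u ^ 2)
    (hf : ExtraCondition m f) : ExtraCondition m g := by
  have hzero : ∀ u, f u = 0 → g u = 0 := by
    intro u hu
    have := h u
    rw [hu] at this
    have h2 : g u ^ 2 = 0 := le_antisymm (by simpa using this) (sq_nonneg _)
    exact pow_eq_zero_iff (two_ne_zero) |>.mp h2
  cases m with
  | rootlessSibling =>
    obtain ⟨h0, hs⟩ := hf
    exact ⟨hzero _ h0, fun r A => (Finset.sum_le_sum fun n _ => h (n :: r)).trans (hs r A)⟩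
  | rootedSibling =>
    exact fun r A => (Finset.sum_le_sum fun n _ => h (n :: r)).trans (hf r A)
  | antichain =>
    obtain ⟨hfin, hs⟩ := hf
    refine ⟨hfin.subset ?_, fun A hA => (Finset.sum_le_sum fun u _ => h u).trans (hs A hA)⟩
    intro u hu
    simp only [Function.mem_support] at hu ⊢
    exact fun h0 => hu (hzero u h0)
  | global =>
    exact fun A => (Finset.sum_le_sum fun u _ => h u).trans (hf A)

theorem pathPotential_neg (f : List ℕ → ℝ) (s : List ℕ) :
    pathPotential (fun u => -f u) s = -pathPotential f s := by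
  induction s with
  | nil => simp [pathPotential]
  | cons a v ih => simp [pathPotential, ih]; ring

theorem isTest_neg {m : PotentialModel} {f : List ℕ → ℝ} (hf : IsTest m f) :
    IsTest m (fun u => -f u) := by
  refine ⟨fun s => ?_, extra_of_sq_le m (fun u => by simp) hf.2⟩
  rw [pathPotential_neg, abs_neg]
  exact hf.1 s

/-- A family with all finite square sums at most one, finite support and (in the rootless
model) zero root coefficient satisfies every extra condition. -/
theorem extra_of_global (m : PotentialModel) {f : List ℕ → ℝ}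
    (hg : ∀ A : Finset (List ℕ), ∑ u ∈ A, f u ^ 2 ≤ 1) (hfin : (Function.support f).Finite)
    (h0 : m = .rootlessSibling → f [] = 0) : ExtraCondition m f := by
  have hsib : ∀ (r : List ℕ) (A : Finset ℕ), ∑ n ∈ A, f (n :: r) ^ 2 ≤ 1 := by
    intro r A
    have := hg (A.image fun n => n :: r)
    rwa [Finset.sum_image (fun x _ y _ hxy => (List.cons.inj hxy).1)] at this
  cases m with
  | rootlessSibling => exact ⟨h0 rfl, hsib⟩
  | rootedSibling => exact hsib
  | antichain => exact ⟨hfin, fun A _ => hg A⟩
  | global => exact hg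

theorem pathPotential_zero (s : List ℕ) : pathPotential (fun _ => (0 : ℝ)) s = 0 := by
  induction s with
  | nil => simp [pathPotential]
  | cons a v ih => simp [pathPotential, ih]

theorem isTest_zero (m : PotentialModel) : IsTest m (fun _ => (0 : ℝ)) := by
  refine ⟨fun s => by simp [pathPotential_zero], extra_of_global m (fun A => by simp) ?_ (fun _ => rfl)⟩
  simp [Function.support]

/-- Package a test as an element of the test set. -/
def mkTest (m : PotentialModel) (f : List ℕ → ℝ) (hf : IsTest m f) : PotentialTest m := ⟨f, hf⟩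

@[simp] theorem mkTest_val (m : PotentialModel) (f : List ℕ → ℝ) (hf : IsTest m f) :
    (mkTest m f hf).1 = f := rfl

instance (m : PotentialModel) : Nonempty (PotentialTest m) := ⟨mkTest m _ (isTest_zero m)⟩

/-- The indicator family of a vertex. -/
noncomputable def delta (s : List ℕ) : List ℕ → ℝ := fun u => if u = s then 1 else 0

theorem pathPotential_delta (s v : List ℕ) :
    pathPotential (delta s) v = 0 ∨ (pathPotential (delta s) v = 1 ∧ s <:+ v) := by
  induction v with
  | nil =>
    by_cases h : ([] : List ℕ) = s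
    · right; subst h; simp [pathPotential, delta]
    · left; simp [pathPotential, delta, h]
  | cons a v ih =>
    rcases ih with h0 | ⟨h1, hs⟩
    · by_cases h : a :: v = s
      · right; subst h; simp [pathPotential, delta, h0]
      · left; simp [pathPotential, delta, h0, h]
    · right
      have hne : a :: v ≠ s := by
        intro h
        have := hs.length_le
        rw [← h] at this
        simp at this
      refine ⟨by simp [pathPotential, delta, h1, hne], hs.trans (List.suffix_cons a v)⟩

theorem isTest_delta (m : PotentialModel) (s : List ℕ) (hs : m = .rootlessSibling → s ≠ []) :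
    IsTest m (delta s) := by
  refine ⟨fun v => ?_, extra_of_global m (fun A => ?_) ?_ (fun hm => ?_)⟩
  · rcases pathPotential_delta s v with h | ⟨h, -⟩ <;> simp [h]
  · have : ∀ u, delta s u ^ 2 = if u = s then 1 else 0 := by
      intro u; unfold delta; split_ifs <;> simp
    simp only [this, Finset.sum_ite_eq']
    split_ifs <;> norm_num
  · refine (Set.finite_singleton s).subset ?_
    intro u hu
    simp only [Function.mem_support, delta] at hu
    by_contra h
    exact hu (if_neg h)
  · simp [delta, (hs hm).symm]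

/-- Restriction of a family to a finite set of vertices. -/
noncomputable def restr (S : Finset (List ℕ)) (f : List ℕ → ℝ) : List ℕ → ℝ :=
  fun u => if u ∈ S then f u else 0

theorem pathPotential_restr {S : Finset (List ℕ)} (hS0 : [] ∈ S)
    (hS : ∀ u ∈ S, ∀ v : List ℕ, v <:+ u → v ∈ S) (f : List ℕ → ℝ) (s : List ℕ) :
    (∃ u, pathPotential (restr S f) s = pathPotential f u) ∧
      (s ∈ S → pathPotential (restr S f) s = pathPotential f s) := by
  induction s with
  | nil => exact ⟨⟨[], by simp [pathPotential, restr, hS0]⟩, fun _ => by simp [pathPotential, restr, hS0]⟩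
  | cons a v ih =>
    by_cases h : a :: v ∈ S
    · have hv : v ∈ S := hS _ h v (List.suffix_cons a v)
      have e : pathPotential (restr S f) (a :: v) = pathPotential f (a :: v) := by
        simp [pathPotential, restr, h, ih.2 hv]
      exact ⟨⟨_, e⟩, fun _ => e⟩
    · obtain ⟨u, hu⟩ := ih.1
      exact ⟨⟨u, by simp [pathPotential, restr, h, hu]⟩, fun h' => absurd h' h⟩

theorem isTest_restr {m : PotentialModel} {S : Finset (List ℕ)} (hS0 : [] ∈ S)
    (hS : ∀ u ∈ S, ∀ v : List ℕ, v <:+ u → v ∈ S) {f : List ℕ → ℝ} (hf : IsTest m f) :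
    IsTest m (restr S f) := by
  refine ⟨fun s => ?_, extra_of_sq_le m (fun u => ?_) hf.2⟩
  · obtain ⟨u, hu⟩ := (pathPotential_restr hS0 hS f s).1
    rw [hu]
    exact hf.1 u
  · unfold restr
    split_ifs
    · exact le_rfl
    · simpa using sq_nonneg (f u)

/-- Every value of a test is at most two in absolute value. -/
theorem abs_le_two {m : PotentialModel} {f : List ℕ → ℝ} (hf : IsTest m f) (s : List ℕ) :
    |f s| ≤ 2 := by
  cases s with
  | nil =>
    have h0 := hf.1 []
    simp only [pathPotential] at h0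
    linarith
  | cons a v =>
    have h1 := hf.1 (a :: v)
    have h2 := hf.1 v
    simp only [pathPotential] at h1
    rw [abs_le] at h1 h2 ⊢
    constructor <;> linarith [h1.1, h1.2, h2.1, h2.2]

/-! ### The ambient space and evaluation functionals -/

/-- The ambient space of bounded functions on the test set. -/
abbrev Amb (m : PotentialModel) : Type := lp (fun _ : PotentialTest m => ℝ) ⊤

/-- Evaluation at a test, as a continuous linear functional of norm at most one. -/
noncomputable def ev (m : PotentialModel) (h : PotentialTest m) : Amb m →L[ℝ] ℝ :=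
  lp.evalCLM ℝ (fun _ : PotentialTest m => ℝ) ⊤ h

theorem ev_apply (m : PotentialModel) (h : PotentialTest m) (z : Amb m) : ev m h z = z h := rfl

theorem abs_ev_le (m : PotentialModel) (h : PotentialTest m) (z : Amb m) : |ev m h z| ≤ ‖z‖ := by
  rw [ev_apply, ← Real.norm_eq_abs]
  exact lp.norm_apply_le_norm ENNReal.top_ne_zero z h

theorem ev_le (m : PotentialModel) (h : PotentialTest m) (z : Amb m) : ev m h z ≤ ‖z‖ :=
  (le_abs_self _).trans (abs_ev_le m h z)

theorem neg_le_ev (m : PotentialModel) (h : PotentialTest m) (z : Amb m) : -‖z‖ ≤ ev m h z :=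
  (abs_le.mp (abs_ev_le m h z)).1

theorem ev_coordVector (m : PotentialModel) (h : PotentialTest m) (s : List ℕ) :
    ev m h (coordVector m s) = h.1 s := rfl

theorem norm_coordVector_le (m : PotentialModel) (s : List ℕ) : ‖coordVector m s‖ ≤ 2 :=
  lp.norm_le_of_forall_le (by norm_num) fun h => by
    rw [Real.norm_eq_abs]
    exact abs_le_two h.2 s

/-- Finite combinations of coordinate vectors. -/
noncomputable def fsum (m : PotentialModel) (T : Finset (List ℕ)) (d : List ℕ → ℝ) : Amb m :=
  ∑ u ∈ T, d u • coordVector m u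

theorem ev_fsum (m : PotentialModel) (h : PotentialTest m) (T : Finset (List ℕ)) (d : List ℕ → ℝ) :
    ev m h (fsum m T d) = ∑ u ∈ T, d u * h.1 u := by
  simp [fsum, map_sum, ev_coordVector]

/-- The norm of a finite combination is almost attained at a test (no absolute value needed,
the test set being symmetric). -/
theorem exists_test_ge_fsum (m : PotentialModel) (T : Finset (List ℕ)) (d : List ℕ → ℝ) {δ : ℝ}
    (hδ : 0 < δ) : ∃ h : PotentialTest m, ‖fsum m T d‖ - δ ≤ ev m h (fsum m T d) := by
  have h1 : ‖fsum m T d‖ - δ < ⨆ i, ‖(fsum m T d) i‖ := by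
    rw [← lp.norm_eq_ciSup]; linarith
  obtain ⟨h, hh⟩ := exists_lt_of_lt_ciSup h1
  rw [Real.norm_eq_abs, ← ev_apply] at hh
  by_cases hz : 0 ≤ ev m h (fsum m T d)
  · exact ⟨h, by rw [abs_of_nonneg hz] at hh; exact hh.le⟩
  · refine ⟨mkTest m (fun u => -h.1 u) (isTest_neg h.2), ?_⟩
    have : ev m (mkTest m (fun u => -h.1 u) (isTest_neg h.2)) (fsum m T d)
        = -ev m h (fsum m T d) := by
      rw [ev_fsum, ev_fsum, ← Finset.sum_neg_distrib]
      exact Finset.sum_congr rfl fun u _ => by rw [mkTest_val]; ring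
    rw [this]
    rw [abs_of_neg (not_le.mp hz)] at hh
    exact hh.le

/-- Elements of the model space are approximated by finite combinations. -/
theorem exists_approx (m : PotentialModel) {z : Amb m} (hz : z ∈ modelSpace m) {η : ℝ}
    (hη : 0 < η) : ∃ c : List ℕ →₀ ℝ, ‖z - fsum m c.support c‖ < η := by
  have hz' : z ∈ closure ((Submodule.span ℝ (Set.range (coordVector m)) : Set (Amb m))) := by
    have := hz
    rw [modelSpace, ← SetLike.mem_coe, Submodule.topologicalClosure_coe] at this
    exact this
  obtain ⟨b, hb, hdist⟩ := Metric.mem_closure_iff.mp hz' η hη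
  obtain ⟨c, rfl⟩ := Finsupp.mem_span_range_iff_exists_finsupp.mp hb
  refine ⟨c, ?_⟩
  rw [dist_eq_norm] at hdist
  exact hdist

/-- The coordinate functional of the vertex `s`: evaluation at the indicator test of `s` when
that is a test, and zero otherwise (rootless model at the root, where the coordinate vector
vanishes). -/
noncomputable def cfun (m : PotentialModel) (s : List ℕ) : Amb m →L[ℝ] ℝ := by
  classical
  exact if h : IsTest m (delta s) then ev m (mkTest m (delta s) h) else 0

theorem abs_cfun_le (m : PotentialModel) (s : List ℕ) (z : Amb m) : |cfun m s z| ≤ ‖z‖ := by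
  unfold cfun
  split_ifs with h
  · exact abs_ev_le m _ z
  · simp

theorem cfun_fsum_support (m : PotentialModel) {s : List ℕ} (hs : IsTest m (delta s))
    (c : List ℕ →₀ ℝ) : cfun m s (fsum m c.support c) = c s := by
  classical
  unfold cfun
  rw [dif_pos hs, ev_fsum]
  simp only [mkTest_val, delta, mul_ite, mul_one, mul_zero, Finset.sum_ite_eq',
    Finsupp.mem_support_iff]
  split_ifs with h
  · rfl
  · exact (not_not.mp h).symm

theorem coordVector_eq_zero_of_not_isTest (m : PotentialModel) {s : List ℕ}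
    (hs : ¬ IsTest m (delta s)) : coordVector m s = 0 := by
  have h1 : m = .rootlessSibling ∧ s = [] := by
    by_contra hcon
    exact hs (isTest_delta m s fun hm hs' => hcon ⟨hm, hs'⟩)
  obtain ⟨rfl, rfl⟩ := h1
  apply lp.ext
  funext f
  exact f.2.2.1

/-! ### The core midpoint inequality -/

theorem core_midpoint (m : PotentialModel) (x : lp (fun _ : PotentialTest m => ℝ) ⊤)
    (hx : x ∈ modelSpace m) (ε : ℝ) (hε : 0 < ε) :
    ∃ (n : ℕ) (c : Fin n → (lp (fun _ : PotentialTest m => ℝ) ⊤) →L[ℝ] ℝ),
      ∀ y ∈ modelSpace m, (∀ i, c i y = 0) → ∀ a b : ℝ, 0 ≤ a → 0 ≤ b → a ^ 2 + b ^ 2 ≤ 1 →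
        b ≤ 1 / 2 → 2 * a * ‖x‖ + b * ‖y‖ - ε ≤ ‖x + y‖ + ‖x - y‖ := by
  classical
  set δ : ℝ := ε / 16 with hδdef
  have hδ : 0 < δ := by positivity
  obtain ⟨cx, hcx⟩ := exists_approx m hx hδ
  set x0 : Amb m := fsum m cx.support cx with hx0
  set S : Finset (List ℕ) := insert [] (cx.support.biUnion fun u => u.tails.toFinset) with hSdef
  have hS0 : [] ∈ S := Finset.mem_insert_self _ _
  have hS : ∀ u ∈ S, ∀ v : List ℕ, v <:+ u → v ∈ S := by
    intro u hu v hv
    rw [hSdef, Finset.mem_insert] at hu ⊢
    rcases hu with rfl | hu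
    · left; exact List.suffix_nil.mp hv
    · right
      rw [Finset.mem_biUnion] at hu ⊢
      obtain ⟨w, hw, huw⟩ := hu
      refine ⟨w, hw, ?_⟩
      rw [List.mem_toFinset, List.mem_tails] at huw ⊢
      exact hv.trans huw
  have hsub : cx.support ⊆ S := by
    intro u hu
    rw [hSdef, Finset.mem_insert]
    right
    rw [Finset.mem_biUnion]
    exact ⟨u, hu, by simp⟩
  obtain ⟨f0, hf0⟩ := exists_test_ge_fsum m cx.support cx hδ
  have hf : IsTest m (restr S f0.1) := isTest_restr hS0 hS f0.2
  refine ⟨S.card, fun i => cfun m (S.equivFin.symm i).1, ?_⟩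
  intro y hy hcy a b ha hb hab hb2
  have hcS : ∀ s ∈ S, cfun m s y = 0 := by
    intro s hs
    have := hcy (S.equivFin ⟨s, hs⟩)
    simpa using this
  set ε' : ℝ := δ / (1 + 2 * S.card) with hε'
  have hden : (0 : ℝ) < 1 + 2 * S.card := by positivity
  have hε'pos : 0 < ε' := by positivity
  obtain ⟨cy, hcy1⟩ := exists_approx m hy hε'pos
  set y1 : Amb m := fsum m cy.support cy with hy1
  set dy : List ℕ → ℝ := fun u => if u ∈ S then 0 else cy u with hdy
  set y0 : Amb m := fsum m cy.support dy with hy0
  -- the `S`-coordinates of `y1` are small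
  have hterm : ∀ u ∈ S, ‖cy u • coordVector m u‖ ≤ 2 * ε' := by
    intro u hu
    by_cases ht : IsTest m (delta u)
    · have h1 : cfun m u y1 = cy u := cfun_fsum_support m ht cy
      have h2 : cfun m u (y1 - y) = cy u := by rw [map_sub, h1, hcS u hu, sub_zero]
      have h3 : |cy u| ≤ ε' := by
        rw [← h2]
        refine (abs_cfun_le m u _).trans ?_
        rw [norm_sub_rev]
        exact hcy1.le
      rw [norm_smul, Real.norm_eq_abs]
      calc |cy u| * ‖coordVector m u‖ ≤ ε' * 2 :=
            mul_le_mul h3 (norm_coordVector_le m u) (norm_nonneg _) hε'pos.le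
        _ = 2 * ε' := by ring
    · rw [coordVector_eq_zero_of_not_isTest m ht]
      simp [hε'pos.le]
  have hy10 : ‖y1 - y0‖ ≤ S.card * (2 * ε') := by
    have e : y1 - y0 = ∑ u ∈ cy.support.filter (· ∈ S), cy u • coordVector m u := by
      rw [hy1, hy0, fsum, fsum, ← Finset.sum_sub_distrib, Finset.sum_filter]
      refine Finset.sum_congr rfl fun u _ => ?_
      by_cases hu : u ∈ S
      · simp [hdy, hu]
      · simp [hdy, hu]
    rw [e]
    calc ‖∑ u ∈ cy.support.filter (· ∈ S), cy u • coordVector m u‖
        ≤ ∑ u ∈ cy.support.filter (· ∈ S), ‖cy u • coordVector m u‖ := norm_sum_le _ _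
      _ ≤ ∑ u ∈ S, ‖cy u • coordVector m u‖ :=
          Finset.sum_le_sum_of_subset_of_nonneg
            (fun u hu => (Finset.mem_filter.mp hu).2) (fun _ _ _ => norm_nonneg _)
      _ ≤ ∑ _u ∈ S, 2 * ε' := Finset.sum_le_sum hterm
      _ = S.card * (2 * ε') := by rw [Finset.sum_const, nsmul_eq_mul]
  have hyy0 : ‖y - y0‖ ≤ δ := by
    have h1 : ‖y - y0‖ ≤ ‖y - y1‖ + ‖y1 - y0‖ := by
      have : y - y0 = (y - y1) + (y1 - y0) := by abel
      rw [this]; exact norm_add_le _ _
    have h2 : ε' * (1 + 2 * S.card) = δ := by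
      rw [hε']; field_simp
    nlinarith [hcy1.le, hy10]
  obtain ⟨g, hg⟩ := exists_test_ge_fsum m cy.support dy hδ
  obtain ⟨hp, hm, hpT, hmT, hS1, hS2⟩ :=
    Crest.Agent.S0168.Helper92.exists_split_tests m S hS0 hS (restr S f0.1) g.1 hf g.2
    (fun u hu => by simp [restr, hu]) a b ha hb hab hb2
  have e1 : ev m (mkTest m hp hpT) x0 = a * ev m f0 x0 := by
    rw [hx0, ev_fsum, ev_fsum, Finset.mul_sum]
    refine Finset.sum_congr rfl fun u hu => ?_
    have := (hS1 u (hsub hu)).1
    simp only [mkTest_val, this, restr, hsub hu, if_true]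
    ring
  have e2 : ev m (mkTest m hm hmT) x0 = a * ev m f0 x0 := by
    rw [hx0, ev_fsum, ev_fsum, Finset.mul_sum]
    refine Finset.sum_congr rfl fun u hu => ?_
    have := (hS1 u (hsub hu)).2
    simp only [mkTest_val, this, restr, hsub hu, if_true]
    ring
  have e3 : ev m (mkTest m hp hpT) y0 - ev m (mkTest m hm hmT) y0 = b * ev m g y0 := by
    rw [hy0, ev_fsum, ev_fsum, ev_fsum, Finset.mul_sum, ← Finset.sum_sub_distrib]
    refine Finset.sum_congr rfl fun u _ => ?_
    rw [hdy]
    by_cases hu : u ∈ S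
    · simp [hu]
    · have := hS2 u hu
      simp only [mkTest_val, hu, if_false]
      rw [← mul_sub, this]
      ring
  -- assemble
  have i1 : ev m (mkTest m hp hpT) (x + y) ≤ ‖x + y‖ := ev_le m _ _
  have i2 : ev m (mkTest m hm hmT) (x - y) ≤ ‖x - y‖ := ev_le m _ _
  have i3 : -‖x - x0‖ ≤ ev m (mkTest m hp hpT) (x - x0) := neg_le_ev m _ _
  have i4 : -‖x - x0‖ ≤ ev m (mkTest m hm hmT) (x - x0) := neg_le_ev m _ _
  have i5 : -‖y - y0‖ ≤ ev m (mkTest m hp hpT) (y - y0) := neg_le_ev m _ _
  have i6 : ev m (mkTest m hm hmT) (y - y0) ≤ ‖y - y0‖ := ev_le m _ _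
  simp only [map_add, map_sub] at i1 i2 i3 i4 i5 i6
  have n1 : ‖x‖ ≤ ‖x0‖ + ‖x - x0‖ := by
    have : x = x0 + (x - x0) := by abel
    calc ‖x‖ = ‖x0 + (x - x0)‖ := by rw [← this]
      _ ≤ _ := norm_add_le _ _
  have n2 : ‖y‖ ≤ ‖y0‖ + ‖y - y0‖ := by
    have : y = y0 + (y - y0) := by abel
    calc ‖y‖ = ‖y0 + (y - y0)‖ := by rw [← this]
      _ ≤ _ := norm_add_le _ _
  have a1 : a ≤ 1 := by nlinarith
  have hF : ‖x‖ - 2 * δ ≤ ev m f0 x0 := by linarith [hcx.le]
  have hG : ‖y‖ - 2 * δ ≤ ev m g y0 := by linarith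
  have p1 : a * (‖x‖ - 2 * δ) ≤ a * ev m f0 x0 := mul_le_mul_of_nonneg_left hF ha
  have p2 : b * (‖y‖ - 2 * δ) ≤ b * ev m g y0 := mul_le_mul_of_nonneg_left hG hb
  have p3 : a * δ ≤ 1 * δ := mul_le_mul_of_nonneg_right a1 hδ.le
  have p4 : b * δ ≤ 1 / 2 * δ := mul_le_mul_of_nonneg_right hb2 hδ.le
  have hεδ : ε = 16 * δ := by rw [hδdef]; ring
  linarith [hcx.le]

end Crest.Agent.S0168.Helper24
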