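import Mathlib
import Crest.Prelude.Def_AsymptoticConvexity
import Crest.Prelude.Def_TreePotentials
import Crest.Agent.Lib.S0166.Helper32Core

/-!
S0168 assembly (package PA168), hypothesis-parametrised form: the three conclusions of S0168
for a model `m`, from the core midpoint inequality (P168A2) and the branch lemmas (P168B), which
enter as explicit hypotheses.  `Helper10Main` instantiates them with the landed lemmas.
-/

set_option autoImplicit false

namespace Crest.Agent.S0168.Helper10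

open Crest.AnalysisR Crest.AnalysisR.TreePotential Crest.Agent.S0166.Helper32

/-- Midpoint modulus lower bound from the core midpoint inequality. -/
theorem midpoint_of (m : PotentialModel)
    (hcore : ∀ (x : lp (fun _ : PotentialTest m => ℝ) ⊤), x ∈ modelSpace m → ∀ ε : ℝ, 0 < ε →
      ∃ (n : ℕ) (c : Fin n → (lp (fun _ : PotentialTest m => ℝ) ⊤) →L[ℝ] ℝ),
        ∀ y ∈ modelSpace m, (∀ i, c i y = 0) → ∀ a b : ℝ, 0 ≤ a → 0 ≤ b → a ^ 2 + b ^ 2 ≤ 1 →
          b ≤ 1 / 2 → 2 * a * ‖x‖ + b * ‖y‖ - ε ≤ ‖x + y‖ + ‖x - y‖)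
    (t : ℝ) (ht0 : 0 < t) (ht1 : t < 1) :
    (modelBanach m).MidpointModulusGE (modelBanach m).norm t
      (Real.sqrt (1 + t ^ 2 / 4) - 1) := by
  show ∀ x : modelSpace m, ‖x‖ = 1 → ∀ η : ℝ, 0 < η → ∃ F : Set (modelSpace m), IsCofG F ∧
    ∀ y ∈ F, ‖y‖ = 1 →
      Real.sqrt (1 + t ^ 2 / 4) - 1 - η ≤ (‖x + t • y‖ + ‖x - t • y‖) / 2 - 1
  intro x hx η hη
  obtain ⟨n, c, hc⟩ := hcore (x : lp (fun _ : PotentialTest m => ℝ) ⊤) x.2 (2 * η) (by positivity)
  refine ⟨{y : modelSpace m | ∀ i, c i (y : lp (fun _ : PotentialTest m => ℝ) ⊤) = 0}, ?_, ?_⟩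
  · exact isCofG_iInter_ker (fun i => (c i).comp (modelSpace m).subtypeL)
  · intro y hy hy1
    have hpos : (0 : ℝ) < 1 + t ^ 2 / 4 := by positivity
    set r := Real.sqrt (1 + t ^ 2 / 4) with hr
    have hrpos : 0 < r := Real.sqrt_pos.mpr hpos
    have hr2 : r ^ 2 = 1 + t ^ 2 / 4 := Real.sq_sqrt hpos.le
    have hr1 : 1 ≤ r := by
      rw [hr]
      exact Real.le_sqrt_of_sq_le (by nlinarith)
    have hy' : ∀ i, c i (t • (y : lp (fun _ : PotentialTest m => ℝ) ⊤)) = 0 := by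
      intro i
      rw [map_smul, hy i, smul_zero]
    have hab : (1 / r) ^ 2 + (t / 2 / r) ^ 2 ≤ 1 := by
      have : (1 / r) ^ 2 + (t / 2 / r) ^ 2 = (1 + t ^ 2 / 4) / r ^ 2 := by
        field_simp
        ring
      rw [this, hr2, div_self hpos.ne']
    have hb : t / 2 / r ≤ 1 / 2 := by
      rw [div_le_iff₀ hrpos]
      linarith
    have key := hc (t • (y : lp (fun _ : PotentialTest m => ℝ) ⊤))
      (Submodule.smul_mem _ t y.2) hy' (1 / r) (t / 2 / r) (by positivity) (by positivity) hab hb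
    have hxn : ‖(x : lp (fun _ : PotentialTest m => ℝ) ⊤)‖ = 1 := hx
    have hyn : ‖t • (y : lp (fun _ : PotentialTest m => ℝ) ⊤)‖ = t := by
      rw [norm_smul, Real.norm_of_nonneg ht0.le]
      have : ‖(y : lp (fun _ : PotentialTest m => ℝ) ⊤)‖ = 1 := hy1
      rw [this, mul_one]
    rw [hxn, hyn] at key
    have e1 : ‖x + t • y‖ = ‖(x : lp (fun _ : PotentialTest m => ℝ) ⊤) + t • (y : lp (fun _ : PotentialTest m => ℝ) ⊤)‖ := rfl
    have e2 : ‖x - t • y‖ = ‖(x : lp (fun _ : PotentialTest m => ℝ) ⊤) - t • (y : lp (fun _ : PotentialTest m => ℝ) ⊤)‖ := rfl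
    rw [e1, e2]
    have h2r : 2 * (1 / r) * 1 + t / 2 / r * t = 2 * r := by
      field_simp
      nlinarith
    linarith

/-- Infinite-dimensionality from the sibling estimates at the root. -/
theorem not_finiteDimensional_of (m : PotentialModel)
    (h1 : ∀ (a : ℕ) (v : List ℕ), 1 ≤ ‖coordVector m (a :: v)‖)
    (hsum : ∀ (v : List ℕ) (s : Finset ℕ),
      ‖∑ a ∈ s, coordVector m (a :: v)‖ ≤ Real.sqrt s.card) :
    ¬ FiniteDimensional ℝ (modelSpace m) := by
  have hmem : ∀ u : List ℕ, coordVector m u ∈ modelSpace m := fun u =>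
    Submodule.le_topologicalClosure _ (Submodule.subset_span (Set.mem_range_self u))
  refine not_finiteDimensional_of_sqrt_seq (δ := 1) one_pos
    (fun a => (⟨coordVector m [a], hmem _⟩ : modelSpace m)) (fun a => h1 a []) (C := 1) ?_
  intro s
  have : ‖∑ a ∈ s, (⟨coordVector m [a], hmem _⟩ : modelSpace m)‖
      = ‖∑ a ∈ s, coordVector m [a]‖ := by
    rw [Submodule.coe_norm, Submodule.coe_sum]
  rw [this, one_mul]
  exact hsum [] s

/-- No equivalent norm is asymptotically uniformly convex, from the branch-sum tree. -/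
theorem not_auc_of (m : PotentialModel)
    (bs : List ℕ → lp (fun _ : PotentialTest m => ℝ) ⊤)
    (hbs_mem : ∀ v, bs v ∈ modelSpace m) (hbs_norm : ∀ v, ‖bs v‖ ≤ 1)
    (hbs_cons : ∀ (a : ℕ) (v : List ℕ), bs (a :: v) = bs v + coordVector m (a :: v))
    (h1 : ∀ (a : ℕ) (v : List ℕ), 1 ≤ ‖coordVector m (a :: v)‖)
    (hsum : ∀ (v : List ℕ) (s : Finset ℕ),
      ‖∑ a ∈ s, coordVector m (a :: v)‖ ≤ Real.sqrt s.card)
    (N : (modelBanach m).X → ℝ) (hN : (modelBanach m).IsEquivNorm N) :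
    ¬ (modelBanach m).IsAUC N := by
  have hmem : ∀ u : List ℕ, coordVector m u ∈ modelSpace m := fun u =>
    Submodule.le_topologicalClosure _ (Submodule.subset_span (Set.mem_range_self u))
  rw [isAUC_iff]
  rw [isEquivNorm_iff] at hN
  refine not_isAUCG_of_sqrt_tree (X := modelSpace m)
    (T := {x : modelSpace m | ∃ v, (x : lp (fun _ : PotentialTest m => ℝ) ⊤) = bs v})
    (R := 1) (δ := 1) one_pos ⟨⟨bs [], hbs_mem _⟩, [], rfl⟩ ?_ ?_ N hN
  · rintro x ⟨v, hv⟩
    have : ‖x‖ = ‖bs v‖ := by rw [← hv]; rfl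
    rw [this]
    exact hbs_norm v
  · rintro x ⟨v, hv⟩
    refine ⟨fun a => (⟨coordVector m (a :: v), hmem _⟩ : modelSpace m), ?_, ?_, 1, ?_⟩
    · intro a
      refine ⟨a :: v, ?_⟩
      rw [hbs_cons, ← hv]
      rfl
    · intro a
      exact h1 a v
    · intro s
      have : ‖∑ a ∈ s, (⟨coordVector m (a :: v), hmem _⟩ : modelSpace m)‖
          = ‖∑ a ∈ s, coordVector m (a :: v)‖ := by
        rw [Submodule.coe_norm, Submodule.coe_sum]
      rw [this, one_mul]
      exact hsum v s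

/-- The statement of S0168 for the model `m`, from the core midpoint inequality and the branch
lemmas. -/
theorem main_of (m : PotentialModel)
    (hcore : ∀ (x : lp (fun _ : PotentialTest m => ℝ) ⊤), x ∈ modelSpace m → ∀ ε : ℝ, 0 < ε →
      ∃ (n : ℕ) (c : Fin n → (lp (fun _ : PotentialTest m => ℝ) ⊤) →L[ℝ] ℝ),
        ∀ y ∈ modelSpace m, (∀ i, c i y = 0) → ∀ a b : ℝ, 0 ≤ a → 0 ≤ b → a ^ 2 + b ^ 2 ≤ 1 →
          b ≤ 1 / 2 → 2 * a * ‖x‖ + b * ‖y‖ - ε ≤ ‖x + y‖ + ‖x - y‖)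
    (hsep : TopologicalSpace.SeparableSpace (modelSpace m))
    (bs : List ℕ → lp (fun _ : PotentialTest m => ℝ) ⊤)
    (hbs_mem : ∀ v, bs v ∈ modelSpace m) (hbs_norm : ∀ v, ‖bs v‖ ≤ 1)
    (hbs_cons : ∀ (a : ℕ) (v : List ℕ), bs (a :: v) = bs v + coordVector m (a :: v))
    (h1 : ∀ (a : ℕ) (v : List ℕ), 1 ≤ ‖coordVector m (a :: v)‖)
    (hsum : ∀ (v : List ℕ) (s : Finset ℕ),
      ‖∑ a ∈ s, coordVector m (a :: v)‖ ≤ Real.sqrt s.card) :
    (Crest.AnalysisR.TreePotential.modelBanach m).IsSeparableInfiniteDim ∧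
      (∀ t : ℝ, 0 < t → t < 1 →
        (Crest.AnalysisR.TreePotential.modelBanach m).MidpointModulusGE
          (Crest.AnalysisR.TreePotential.modelBanach m).norm t (Real.sqrt (1 + t ^ 2 / 4) - 1)) ∧
      ∀ N : (Crest.AnalysisR.TreePotential.modelBanach m).X → ℝ,
        (Crest.AnalysisR.TreePotential.modelBanach m).IsEquivNorm N →
          ¬ (Crest.AnalysisR.TreePotential.modelBanach m).IsAUC N := by
  refine ⟨⟨hsep, not_finiteDimensional_of m h1 hsum⟩, fun t ht0 ht1 => midpoint_of m hcore t ht0 ht1,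
    fun N hN => not_auc_of m bs hbs_mem hbs_norm hbs_cons h1 hsum N hN⟩

end Crest.Agent.S0168.Helper10
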