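import Mathlib
import Crest.Prelude.Def_TreePotentials
import Crest.Agent.Lib.S0166.Helper32Core

/-!
Row 125 / S0168, package P168B (helper55): branch sums, coordinate estimates and separability in the
tree-potential model spaces.
-/

set_option autoImplicit false

namespace Crest.Agent.S0168.Helper55

open Crest.AnalysisR Crest.AnalysisR.TreePotential

/-- The branch sum of a vertex: the sum of the coordinate vectors of the vertex and all its
ancestors. Its value at a test `f` is `pathPotential f.1 v`. -/
noncomputable def branchSum (m : PotentialModel) : List ℕ → lp (fun _ : PotentialTest m => ℝ) ⊤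
  | [] => coordVector m []
  | a :: v => branchSum m v + coordVector m (a :: v)

theorem h55_coordVector_apply (m : PotentialModel) (s : List ℕ) (f : PotentialTest m) :
    (coordVector m s : PotentialTest m → ℝ) f = f.1 s := rfl

theorem h55_branchSum_apply (m : PotentialModel) (v : List ℕ) (f : PotentialTest m) :
    (branchSum m v : PotentialTest m → ℝ) f = pathPotential f.1 v := by
  induction v with
  | nil => rfl
  | cons a v ih =>
    show (branchSum m v + coordVector m (a :: v) : lp (fun _ : PotentialTest m => ℝ) ⊤) f = _
    rw [lp.coeFn_add, Pi.add_apply, ih, h55_coordVector_apply]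
    rfl

theorem norm_branchSum_le (m : PotentialModel) (v : List ℕ) : ‖branchSum m v‖ ≤ 1 := by
  refine lp.norm_le_of_forall_le zero_le_one (fun f => ?_)
  rw [h55_branchSum_apply, Real.norm_eq_abs]
  exact f.2.1 v

/-- The indicator family of a vertex. -/
noncomputable def h55_single (w : List ℕ) : List ℕ → ℝ := fun u => if u = w then 1 else 0

theorem h55_single_sq_sum_le {ι : Type*} (w : List ℕ) (g : ι → List ℕ) (hg : Function.Injective g)
    (A : Finset ι) : ∑ i ∈ A, h55_single w (g i) ^ 2 ≤ 1 := by
  classical
  have h1 : ∀ i ∈ A, h55_single w (g i) ^ 2 = if g i = w then (1 : ℝ) else 0 := by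
    intro i _
    unfold h55_single
    split_ifs <;> simp
  rw [Finset.sum_congr rfl h1, Finset.sum_ite, Finset.sum_const_zero, add_zero, Finset.sum_const,
    nsmul_eq_mul, mul_one]
  have h2 : (A.filter fun i => g i = w).card ≤ 1 := by
    rw [Finset.card_le_one]
    intro i hi j hj
    rw [Finset.mem_filter] at hi hj
    exact hg (hi.2.trans hj.2.symm)
  exact_mod_cast h2

theorem h55_pathPotential_single (w s : List ℕ) :
    pathPotential (h55_single w) s = if w <:+ s then 1 else 0 := by
  induction s with
  | nil =>
    simp only [pathPotential, h55_single]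
    by_cases h : ([] : List ℕ) = w
    · subst h; simp
    · have : ¬ w <:+ ([] : List ℕ) := by
        intro hw
        exact h (List.suffix_nil.mp hw).symm
      simp [h, this]
  | cons a v ih =>
    simp only [pathPotential, ih, h55_single]
    by_cases h1 : w <:+ v
    · have h2 : w <:+ a :: v := List.suffix_cons_iff.mpr (Or.inr h1)
      have h3 : a :: v ≠ w := by
        intro h
        subst h
        have := h1.length_le
        simp at this
      simp [h1, h2, h3]
    · by_cases h3 : a :: v = w
      · subst h3
        simp [h1]
      · have h2 : ¬ w <:+ a :: v := by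
          intro h
          rcases List.suffix_cons_iff.mp h with h | h
          · exact h3 h.symm
          · exact h1 h
        simp [h1, h2, h3]

theorem h55_isTest_single (m : PotentialModel) (a : ℕ) (v : List ℕ) :
    IsTest m (h55_single (a :: v)) := by
  refine ⟨fun s => ?_, ?_⟩
  · rw [h55_pathPotential_single]
    split_ifs <;> simp
  · cases m with
    | rootlessSibling =>
      refine ⟨by simp [h55_single], fun r A => ?_⟩
      exact h55_single_sq_sum_le (a :: v) (fun n => n :: r)
        (fun x y h => (List.cons.inj h).1) A
    | rootedSibling =>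
      intro r A
      exact h55_single_sq_sum_le (a :: v) (fun n => n :: r)
        (fun x y h => (List.cons.inj h).1) A
    | antichain =>
      refine ⟨?_, fun A _ => h55_single_sq_sum_le (a :: v) id Function.injective_id A⟩
      refine (Set.finite_singleton (a :: v)).subset ?_
      intro u hu
      rw [Function.mem_support] at hu
      by_contra h
      exact hu (by simp [h55_single, show u ≠ a :: v from h])
    | global =>
      intro A
      exact h55_single_sq_sum_le (a :: v) id Function.injective_id A

theorem one_le_norm_coordVector_cons (m : PotentialModel) (a : ℕ) (v : List ℕ) :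
    1 ≤ ‖coordVector m (a :: v)‖ := by
  have h := lp.norm_apply_le_norm (p := ⊤) (by simp) (coordVector m (a :: v))
    (⟨h55_single (a :: v), h55_isTest_single m a v⟩ : PotentialTest m)
  rw [h55_coordVector_apply] at h
  simpa [h55_single] using h

/-- In every model the squares of the coefficients of a test over finitely many children of one
vertex sum to at most `1`. -/
theorem h55_sibling_sq_sum_le (m : PotentialModel) (f : PotentialTest m) (v : List ℕ)
    (s : Finset ℕ) : ∑ a ∈ s, f.1 (a :: v) ^ 2 ≤ 1 := by
  classical
  have hinj : Function.Injective (fun a : ℕ => a :: v) := fun x y h => (List.cons.inj h).1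
  have himg : ∑ u ∈ s.image (fun a : ℕ => a :: v), f.1 u ^ 2 = ∑ a ∈ s, f.1 (a :: v) ^ 2 :=
    Finset.sum_image (fun x _ y _ h => hinj h)
  obtain ⟨f, hf1, hf2⟩ := f
  cases m with
  | rootlessSibling => exact hf2.2 v s
  | rootedSibling => exact hf2 v s
  | antichain =>
    rw [← himg]
    refine hf2.2 _ ?_
    intro u hu w hw huw hsuf
    rw [Finset.mem_image] at hu hw
    obtain ⟨x, _, rfl⟩ := hu
    obtain ⟨y, _, rfl⟩ := hw
    have hlen : (x :: v).length = (y :: v).length := by simp
    exact huw (hsuf.eq_of_length hlen)
  | global =>
    rw [← himg]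
    exact hf2 _

theorem norm_sum_coordVector_cons_le (m : PotentialModel) (v : List ℕ) (s : Finset ℕ) :
    ‖∑ a ∈ s, coordVector m (a :: v)‖ ≤ Real.sqrt s.card := by
  refine lp.norm_le_of_forall_le (Real.sqrt_nonneg _) (fun f => ?_)
  have hval : (∑ a ∈ s, coordVector m (a :: v) : lp (fun _ : PotentialTest m => ℝ) ⊤) f
      = ∑ a ∈ s, f.1 (a :: v) := by
    rw [lp.coeFn_sum, Finset.sum_apply]
    rfl
  rw [hval, Real.norm_eq_abs]
  apply Real.abs_le_sqrt
  have hcs := Finset.sum_mul_sq_le_sq_mul_sq s (fun _ => (1 : ℝ)) (fun a => f.1 (a :: v))
  simp only [one_mul, one_pow, Finset.sum_const, nsmul_eq_mul, mul_one] at hcs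
  calc (∑ a ∈ s, f.1 (a :: v)) ^ 2 ≤ (s.card : ℝ) * ∑ a ∈ s, f.1 (a :: v) ^ 2 := hcs
    _ ≤ (s.card : ℝ) * 1 :=
        mul_le_mul_of_nonneg_left (h55_sibling_sq_sum_le m f v s) (Nat.cast_nonneg _)
    _ = (s.card : ℝ) := mul_one _

theorem branchSum_mem_span (m : PotentialModel) (v : List ℕ) :
    branchSum m v ∈ Submodule.span ℝ (coordVector m '' {u : List ℕ | u.length ≤ v.length}) := by
  induction v with
  | nil =>
    exact Submodule.subset_span ⟨[], by simp, rfl⟩
  | cons a v ih =>
    show branchSum m v + coordVector m (a :: v) ∈ _
    refine Submodule.add_mem _ ?_ ?_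
    · refine Submodule.span_mono ?_ ih
      apply Set.image_mono
      intro u hu
      have hu' : u.length ≤ v.length := hu
      show u.length ≤ (a :: v).length
      rw [List.length_cons]
      omega
    · exact Submodule.subset_span ⟨a :: v, by simp, rfl⟩

theorem h55_closure_span_separable {E : Type*} [NormedAddCommGroup E] [NormedSpace ℝ E]
    (S : Set E) (hS : S.Countable) :
    TopologicalSpace.SeparableSpace ((Submodule.span ℝ S).topologicalClosure) := by
  have h1 : TopologicalSpace.IsSeparable (Submodule.span ℝ S : Set E) :=
    hS.isSeparable.span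
  have h2 : TopologicalSpace.IsSeparable
      (((Submodule.span ℝ S).topologicalClosure : Submodule ℝ E) : Set E) := by
    rw [Submodule.topologicalClosure_coe]
    exact h1.closure
  exact h2.separableSpace

theorem modelSpace_separable (m : PotentialModel) :
    TopologicalSpace.SeparableSpace (modelSpace m) :=
  h55_closure_span_separable _ (Set.countable_range _)

theorem truncSpan_separable (m : PotentialModel) (k : ℕ) :
    TopologicalSpace.SeparableSpace
      ((Submodule.span ℝ (coordVector m '' {u : List ℕ | u.length ≤ k})).topologicalClosure) :=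
  h55_closure_span_separable _ ((Set.to_countable _).image _)

end Crest.Agent.S0168.Helper55
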