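import Mathlib
import Crest.Prelude.Def_AsymptoticConvexity
import Crest.Prelude.Def_TreePotentials
import Crest.Agent.Lib.S0166.Helper32Core
import Crest.Agent.Lib.S0168.Helper55Branch
import Crest.Agent.Lib.S0168.Helper24Core
import Crest.Agent.Lib.S0168.Helper10MainOf

/-!
S0168 assembly (package PA168): the statement of S0168, from `Helper24.core_midpoint` (P168A2) and
the branch lemmas of `Helper55Branch` (P168B), through `Helper10.main_of`.
-/

set_option autoImplicit false

namespace Crest.Agent.S0168.Helper10

open Crest.AnalysisR Crest.AnalysisR.TreePotential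

/-- The statement of S0168 (same conclusion as the template). -/
theorem main (m : Crest.AnalysisR.TreePotential.PotentialModel) :
    (Crest.AnalysisR.TreePotential.modelBanach m).IsSeparableInfiniteDim ∧
      (∀ t : ℝ, 0 < t → t < 1 →
        (Crest.AnalysisR.TreePotential.modelBanach m).MidpointModulusGE
          (Crest.AnalysisR.TreePotential.modelBanach m).norm t (Real.sqrt (1 + t ^ 2 / 4) - 1)) ∧
      ∀ N : (Crest.AnalysisR.TreePotential.modelBanach m).X → ℝ,
        (Crest.AnalysisR.TreePotential.modelBanach m).IsEquivNorm N →
          ¬ (Crest.AnalysisR.TreePotential.modelBanach m).IsAUC N :=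
  main_of m (fun x hx ε hε => Crest.Agent.S0168.Helper24.core_midpoint m x hx ε hε)
    (Crest.Agent.S0168.Helper55.modelSpace_separable m)
    (Crest.Agent.S0168.Helper55.branchSum m)
    (fun v => Submodule.le_topologicalClosure _
      (Submodule.span_mono (Set.image_subset_range _ _)
        (Crest.Agent.S0168.Helper55.branchSum_mem_span m v)))
    (Crest.Agent.S0168.Helper55.norm_branchSum_le m)
    (fun _ _ => rfl)
    (Crest.Agent.S0168.Helper55.one_le_norm_coordVector_cons m)
    (Crest.Agent.S0168.Helper55.norm_sum_coordVector_cons_le m)

end Crest.Agent.S0168.Helper10
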